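import Mathlib
import Crest.Prelude.Def_ModularData

/-! Basic facts on the bounded functional calculus `LineCalculus`. -/

set_option autoImplicit false

namespace Crest.Agent.R84

open Crest.OpAlg Crest.OpAlg.LineCalculus MeasureTheory Filter
open scoped InnerProductSpace Topology

variable {H : Type*} [NormedAddCommGroup H] [InnerProductSpace ℂ H] [CompleteSpace H]

local notation "BC" => BoundedContinuousFunction ℝ ℂ

lemma character_apply (t u : ℝ) :
    character t u = Complex.exp (Complex.I * ((t * u : ℝ) : ℂ)) := rfl

lemma norm_character_apply (t u : ℝ) : ‖character t u‖ = 1 := by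
  rw [character_apply, Complex.norm_exp]; simp

lemma norm_character_le (t : ℝ) : ‖character t‖ ≤ 1 :=
  (BoundedContinuousFunction.norm_le zero_le_one).2 fun u => (norm_character_apply t u).le

lemma character_add (s t : ℝ) : character (s + t) = character s * character t := by
  ext u
  simp only [character_apply, BoundedContinuousFunction.coe_mul, Pi.mul_apply]
  rw [← Complex.exp_add]; congr 1; push_cast; ring

lemma character_zero : character 0 = 1 := by
  ext u; simp [character_apply]

lemma star_character (t : ℝ) : star (character t) = character (-t) := by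
  ext u
  simp only [character_apply, BoundedContinuousFunction.star_apply, Complex.star_def]
  rw [← Complex.exp_conj]; congr 1
  simp

lemma norm_apply_le (D : LineCalculus H) (f : BC) : ‖D.apply f‖ ≤ ‖f‖ :=
  NonUnitalStarAlgHom.norm_apply_le D.apply f

lemma norm_apply_apply_le (D : LineCalculus H) (f : BC) (x : H) :
    ‖D.apply f x‖ ≤ ‖f‖ * ‖x‖ :=
  ((D.apply f).le_opNorm x).trans (mul_le_mul_of_nonneg_right (norm_apply_le D f) (norm_nonneg _))

lemma apply_mul_apply (D : LineCalculus H) (f g : BC) (x : H) :
    D.apply (f * g) x = D.apply f (D.apply g x) := by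
  rw [map_mul]; rfl

lemma apply_comm (D : LineCalculus H) (f g : BC) (x : H) :
    D.apply f (D.apply g x) = D.apply g (D.apply f x) := by
  rw [← apply_mul_apply, ← apply_mul_apply, mul_comm]

lemma wave_add (D : LineCalculus H) (s t : ℝ) : D.wave (s + t) = D.wave s * D.wave t := by
  simp only [LineCalculus.wave, character_add, map_mul]

lemma wave_zero (D : LineCalculus H) : D.wave 0 = 1 := by
  simp only [LineCalculus.wave, character_zero, map_one]

lemma star_wave (D : LineCalculus H) (t : ℝ) : star (D.wave t) = D.wave (-t) := by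
  simp only [LineCalculus.wave, ← star_character, map_star]

lemma wave_neg_mul (D : LineCalculus H) (t : ℝ) : D.wave (-t) * D.wave t = 1 := by
  rw [← wave_add, neg_add_cancel, wave_zero]

lemma wave_mul_neg (D : LineCalculus H) (t : ℝ) : D.wave t * D.wave (-t) = 1 := by
  rw [← wave_add, add_neg_cancel, wave_zero]

lemma wave_neg_wave (D : LineCalculus H) (t : ℝ) (x : H) : D.wave (-t) (D.wave t x) = x := by
  rw [← ContinuousLinearMap.mul_apply, wave_neg_mul]; rfl

lemma wave_wave_neg (D : LineCalculus H) (t : ℝ) (x : H) : D.wave t (D.wave (-t) x) = x := by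
  rw [← ContinuousLinearMap.mul_apply, wave_mul_neg]; rfl

lemma wave_wave (D : LineCalculus H) (s t : ℝ) (x : H) :
    D.wave s (D.wave t x) = D.wave (s + t) x := by
  rw [wave_add]; rfl

lemma inner_wave_left (D : LineCalculus H) (t : ℝ) (x y : H) :
    ⟪D.wave t x, y⟫_ℂ = ⟪x, D.wave (-t) y⟫_ℂ := by
  rw [← star_wave, ContinuousLinearMap.star_eq_adjoint, ContinuousLinearMap.adjoint_inner_right]

lemma inner_wave_right (D : LineCalculus H) (t : ℝ) (x y : H) :
    ⟪x, D.wave t y⟫_ℂ = ⟪D.wave (-t) x, y⟫_ℂ := by
  rw [inner_wave_left, neg_neg]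

lemma norm_wave_le (D : LineCalculus H) (t : ℝ) : ‖D.wave t‖ ≤ 1 :=
  (norm_apply_le D _).trans (norm_character_le t)

lemma norm_wave_apply (D : LineCalculus H) (t : ℝ) (x : H) : ‖D.wave t x‖ = ‖x‖ := by
  have h : ∀ (t : ℝ) (x : H), ‖D.wave t x‖ ≤ ‖x‖ := fun t x =>
    ((D.wave t).le_opNorm x).trans (by
      have := mul_le_mul_of_nonneg_right (norm_wave_le D t) (norm_nonneg x)
      simpa using this)
  refine le_antisymm (h t x) ?_
  have := h (-t) (D.wave t x)
  rwa [wave_neg_wave] at this

/-- cut-offs of norm at most one approximate every vector -/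
lemma window_one (D : LineCalculus H) (x : H) {ε : ℝ} (hε : 0 < ε) :
    ∃ β : BC, HasCompactSupport (β : ℝ → ℂ) ∧ ‖β‖ ≤ 1 ∧ ‖D.apply β x - x‖ < ε := by
  obtain ⟨f, hf, hfx⟩ := D.window x (ε / 2) (by positivity)
  obtain ⟨g, hg1, -, hgc, hg01⟩ := exists_continuous_one_zero_of_isCompact
    (s := tsupport (f : ℝ → ℂ)) (t := (∅ : Set ℝ)) hf.isCompact isClosed_empty (by simp)
  have hb : ∀ u, ‖((g u : ℝ) : ℂ)‖ ≤ 1 := fun u => by
    rw [Complex.norm_real, Real.norm_eq_abs, abs_of_nonneg (hg01 u).1]; exact (hg01 u).2
  let β : BC := BoundedContinuousFunction.ofNormedAddCommGroup (fun u => ((g u : ℝ) : ℂ))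
    (by fun_prop) 1 hb
  have hβ : ‖β‖ ≤ 1 := (BoundedContinuousFunction.norm_le zero_le_one).2 hb
  refine ⟨β, ?_, hβ, ?_⟩
  · exact hgc.comp_left (g := fun r : ℝ => (r : ℂ)) (by simp)
  · have hβf : β * f = f := by
      ext u
      by_cases hu : u ∈ tsupport (f : ℝ → ℂ)
      · have : β u = 1 := by
          show ((g u : ℝ) : ℂ) = 1
          rw [hg1 hu]; simp
        simp [this]
      · have : f u = 0 := image_eq_zero_of_notMem_tsupport hu
        simp [this]
    have h1 : D.apply β x - x = D.apply β (x - D.apply f x) + (D.apply f x - x) := by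
      rw [map_sub, ← apply_mul_apply, hβf]; abel
    rw [h1]
    have h2 : ‖D.apply β (x - D.apply f x)‖ ≤ ‖D.apply f x - x‖ := by
      refine (norm_apply_apply_le D β _).trans ?_
      rw [norm_sub_rev]
      have := mul_le_mul_of_nonneg_right hβ (norm_nonneg (D.apply f x - x))
      simpa using this
    have := norm_add_le (D.apply β (x - D.apply f x)) (D.apply f x - x)
    linarith

/-- a vector killed by all compactly supported functions vanishes -/
lemma eq_zero_of_cc (D : LineCalculus H) (x : H)
    (h : ∀ f : BC, HasCompactSupport (f : ℝ → ℂ) → D.apply f x = 0) : x = 0 := by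
  rw [← norm_le_zero_iff]
  refine le_of_forall_pos_le_add fun ε hε => ?_
  obtain ⟨f, hf, hfx⟩ := D.window x ε hε
  rw [h f hf] at hfx
  simp at hfx
  linarith

lemma continuous_character_mul (g : BC) (hg : HasCompactSupport (g : ℝ → ℂ)) :
    Continuous fun t : ℝ => character t * g := by
  obtain ⟨R, hR⟩ := hg.isCompact.isBounded.exists_norm_le
  have hR' : ∀ u, g u ≠ 0 → |u| ≤ max R 0 := fun u hu =>
    (hR u (subset_tsupport _ hu)).trans (le_max_left _ _)
  set R' := max R 0
  have hR0 : 0 ≤ R' := le_max_right _ _
  have : LipschitzWith (Real.toNNReal (R' * ‖g‖)) fun t : ℝ => character t * g := by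
    refine LipschitzWith.of_dist_le_mul fun s t => ?_
    rw [dist_eq_norm, Real.coe_toNNReal _ (by positivity), Real.dist_eq]
    refine (BoundedContinuousFunction.norm_le (by positivity)).2 fun u => ?_
    by_cases hu : g u = 0
    · simp only [BoundedContinuousFunction.coe_sub, BoundedContinuousFunction.coe_mul,
        Pi.sub_apply, Pi.mul_apply, hu, mul_zero, sub_self, norm_zero]
      positivity
    · have e : (character s * g - character t * g) u
          = character t u * (Complex.exp (Complex.I * (((s - t) * u : ℝ) : ℂ)) - 1) * g u := by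
        simp only [BoundedContinuousFunction.coe_sub, BoundedContinuousFunction.coe_mul,
          Pi.sub_apply, Pi.mul_apply, character_apply]
        rw [mul_sub, ← Complex.exp_add]
        have : Complex.I * ((t * u : ℝ) : ℂ) + Complex.I * (((s - t) * u : ℝ) : ℂ)
            = Complex.I * ((s * u : ℝ) : ℂ) := by push_cast; ring
        rw [this]; ring
      rw [e, norm_mul, norm_mul, norm_character_apply, one_mul]
      have h1 := Real.norm_exp_I_mul_ofReal_sub_one_le (x := (s - t) * u)
      have h2 : ‖(s - t) * u‖ ≤ |s - t| * R' := by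
        rw [Real.norm_eq_abs, abs_mul]
        exact mul_le_mul_of_nonneg_left (hR' u hu) (abs_nonneg _)
      have h3 := g.norm_coe_le_norm u
      calc _ ≤ (|s - t| * R') * ‖g‖ :=
            mul_le_mul (h1.trans h2) h3 (norm_nonneg _) (by positivity)
        _ = _ := by ring
  exact this.continuous

/-- the map `f ↦ f(D) y` as a continuous linear map -/
noncomputable def applyAt (D : LineCalculus H) (y : H) : BC →L[ℂ] H :=
  LinearMap.mkContinuous
    { toFun := fun f => D.apply f y
      map_add' := fun f g => by rw [map_add]; rfl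
      map_smul' := fun c f => by rw [map_smul]; rfl } ‖y‖
    (fun f => by rw [mul_comm]; exact norm_apply_apply_le D f y)

lemma applyAt_apply (D : LineCalculus H) (y : H) (f : BC) : applyAt D y f = D.apply f y := rfl

lemma continuous_wave (D : LineCalculus H) (x : H) : Continuous fun t : ℝ => D.wave t x := by
  refine continuous_of_uniform_approx_of_continuous fun U hU => ?_
  obtain ⟨ε, hε, hεU⟩ := Metric.mem_uniformity_dist.1 hU
  obtain ⟨f, hf, hfx⟩ := D.window x ε hε
  refine ⟨fun t => D.wave t (D.apply f x), ?_, fun t => hεU ?_⟩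
  · have := (applyAt D x).continuous.comp (continuous_character_mul f hf)
    refine this.congr fun t => ?_
    simp only [Function.comp, applyAt_apply, apply_mul_apply]; rfl
  · rw [dist_eq_norm, ← map_sub, norm_wave_apply, norm_sub_rev]; exact hfx

/-- Fourier representation of the calculus. -/
lemma apply_eq_integral (D : LineCalculus H) (k : ℝ → ℂ) (hk : Integrable k) (τ : ℝ → ℝ)
    (hτ : Continuous τ) (f : BC) (hf : ∀ u, f u = ∫ t, k t * character (τ t) u) (x : H) :
    D.apply f x = ∫ t, k t • D.wave (τ t) x := by
  have hint : ∀ y : H, Integrable fun t => k t • D.wave (τ t) y := fun y => by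
    refine Integrable.mono' (hk.norm.mul_const ‖y‖)
      (hk.aestronglyMeasurable.smul ((continuous_wave D y).comp hτ).aestronglyMeasurable) ?_
    refine Eventually.of_forall fun t => ?_
    rw [norm_smul, norm_wave_apply]
  have key : ∀ g : BC, HasCompactSupport (g : ℝ → ℂ) →
      D.apply f (D.apply g x) = ∫ t, k t • D.wave (τ t) (D.apply g x) := by
    intro g hg
    have hΦ : Integrable fun t => k t • (character (τ t) * g) := by
      refine Integrable.mono' (hk.norm.mul_const ‖g‖)
        (hk.aestronglyMeasurable.smul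
          ((continuous_character_mul g hg).comp hτ).aestronglyMeasurable) ?_
      refine Eventually.of_forall fun t => ?_
      rw [norm_smul]
      refine mul_le_mul_of_nonneg_left ((norm_mul_le _ _).trans ?_) (norm_nonneg _)
      have := mul_le_mul_of_nonneg_right (norm_character_le (τ t)) (norm_nonneg g)
      simpa using this
    have h1 : ∫ t, k t • (character (τ t) * g) = f * g := by
      ext u
      have := (BoundedContinuousFunction.evalCLM ℂ u : BC →L[ℂ] ℂ).integral_comp_comm hΦ
      have e : ∀ φ : BC, (BoundedContinuousFunction.evalCLM ℂ u : BC →L[ℂ] ℂ) φ = φ u :=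
        fun φ => rfl
      simp only [e] at this
      rw [← this]
      simp only [BoundedContinuousFunction.coe_smul, BoundedContinuousFunction.coe_mul,
        Pi.mul_apply, smul_eq_mul, hf u, Pi.smul_apply]
      rw [← integral_mul_const]
      congr 1; ext t; ring
    rw [← apply_mul_apply, ← h1, ← applyAt_apply, ← (applyAt D x).integral_comp_comm hΦ]
    congr 1; ext t
    rw [map_smul, applyAt_apply, apply_mul_apply]; rfl
  rw [← sub_eq_zero]
  refine eq_zero_of_cc D _ fun g hg => ?_
  rw [map_sub, apply_comm, key g hg, ← (D.apply g).integral_comp_comm (hint x), sub_eq_zero]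
  congr 1; ext t
  rw [map_smul]; congr 1
  exact apply_comm D _ _ _

lemma SupportedIn.apply {D : LineCalculus H} {K : Set ℝ} {x : H} (h : D.SupportedIn K x) (g : BC) :
    D.SupportedIn K (D.apply g x) := fun f hf => by
  rw [apply_comm, h f hf, map_zero]

lemma SupportedIn.wave {D : LineCalculus H} {K : Set ℝ} {x : H} (h : D.SupportedIn K x) (t : ℝ) :
    D.SupportedIn K (D.wave t x) := SupportedIn.apply h _

lemma SupportedIn.add {D : LineCalculus H} {K : Set ℝ} {x y : H} (h : D.SupportedIn K x)
    (h' : D.SupportedIn K y) : D.SupportedIn K (x + y) := fun f hf => by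
  rw [map_add, h f hf, h' f hf, add_zero]

lemma SupportedIn.smul {D : LineCalculus H} {K : Set ℝ} {x : H} (h : D.SupportedIn K x)
    (c : ℂ) : D.SupportedIn K (c • x) := fun f hf => by
  rw [map_smul, h f hf, smul_zero]

lemma supportedIn_zero (D : LineCalculus H) (K : Set ℝ) : D.SupportedIn K 0 := fun f _ => by
  rw [map_zero]

lemma supportedIn_apply_of_vanish (D : LineCalculus H) {K : Set ℝ} (g : BC)
    (hg : ∀ u, u ∉ K → g u = 0) (x : H) : D.SupportedIn K (D.apply g x) := fun f hf => by
  have : f * g = 0 := by
    ext u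
    by_cases hu : u ∈ K
    · simp [hf u hu]
    · simp [hg u hu]
  rw [← apply_mul_apply, this, map_zero]; rfl

lemma SupportedIn.apply_congr {D : LineCalculus H} {K : Set ℝ} {x : H} (h : D.SupportedIn K x)
    (f g : BC) (hfg : ∀ u ∈ K, f u = g u) : D.apply f x = D.apply g x := by
  have := h (f - g) fun u hu => by simp [hfg u hu]
  rwa [map_sub, ContinuousLinearMap.sub_apply, sub_eq_zero] at this

lemma SupportedIn.apply_eq_self {D : LineCalculus H} {K : Set ℝ} {x : H} (h : D.SupportedIn K x)
    (f : BC) (hf : ∀ u ∈ K, f u = 1) : D.apply f x = x := by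
  rw [SupportedIn.apply_congr h f 1 (fun u hu => by simp [hf u hu]), map_one]; rfl

end Crest.Agent.R84
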