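import Crest.Agent.R84.Modular

/-! The greedy averaging step, truncation, and the recovery of a bounded element. -/

set_option autoImplicit false

namespace Crest.Agent.R84

open Crest.OpAlg Crest.OpAlg.LineCalculus MeasureTheory Filter
open scoped InnerProductSpace Topology ComplexConjugate

variable {H : Type*} [NormedAddCommGroup H] [InnerProductSpace ℂ H] [CompleteSpace H]

local notation "BC" => BoundedContinuousFunction ℝ ℂ

lemma smul_mem_vN {M : VonNeumannAlgebra H} {a : H →L[ℂ] H} (ha : a ∈ M) (c : ℂ) : c • a ∈ M :=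
  M.toStarSubalgebra.smul_mem ha c

lemma inner_star_mul (a : H →L[ℂ] H) (x : H) :
    ⟪x, (star a * a) x⟫_ℂ = ((‖a x‖ ^ 2 : ℝ) : ℂ) := by
  show ⟪x, star a (a x)⟫_ℂ = _
  rw [ContinuousLinearMap.star_eq_adjoint, ContinuousLinearMap.adjoint_inner_right,
    inner_self_eq_norm_sq_to_K]
  simp

lemma inner_star_mul' (a : H →L[ℂ] H) (x : H) :
    ⟪(star a * a) x, x⟫_ℂ = ((‖a x‖ ^ 2 : ℝ) : ℂ) := by
  rw [← inner_conj_symm, inner_star_mul, Complex.conj_ofReal]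

lemma inner_mul_star (a : H →L[ℂ] H) (x : H) :
    ⟪x, (a * star a) x⟫_ℂ = ((‖star a x‖ ^ 2 : ℝ) : ℂ) := by
  have := inner_star_mul (star a) x
  rwa [star_star] at this

omit [CompleteSpace H] in
lemma inner_self_ofReal (x : H) : ⟪x, x⟫_ℂ = ((‖x‖ ^ 2 : ℝ) : ℂ) := by
  rw [inner_self_eq_norm_sq_to_K]; simp

omit [CompleteSpace H] in
lemma parallelogram (x y : H) : ‖x + y‖ ^ 2 + ‖x - y‖ ^ 2 = 2 * ‖x‖ ^ 2 + 2 * ‖y‖ ^ 2 := by
  have := parallelogram_law_with_norm ℂ x y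
  nlinarith

lemma step (S : ModularDatum H) (herg : S.Ergodic) {ω : Ultrafilter ℕ}
    (hω : (ω : Filter ℕ) ≤ atTop) (T : H →L[ℂ] H) (K : Set ℝ) (E : ℝ) (hE0 : 0 ≤ E)
    (hE : ∀ v ∈ S.M, S.D.SupportedIn K (v S.vac) → ‖star v S.vac‖ ^ 2 ≤ E * ‖v S.vac‖ ^ 2)
    {a : H →L[ℂ] H} (ha : a ∈ S.M) (haK : S.D.SupportedIn K (a S.vac)) {A : ℝ}
    (hA : ‖a S.vac‖ ^ 2 ≤ A) {g : ℝ → ℝ} (hg : Continuous g) {c₀ c₁ : ℝ} (hgm : HasMean ω g c₀)
    (hga : ∀ t, g t ≤ ‖T (S.D.wave t (a S.vac))‖ ^ 2) (hc : c₁ < c₀)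
    {v : H →L[ℂ] H} (hv : v ∈ S.M) (hvK : S.D.SupportedIn K (v S.vac)) {l κ : ℝ} (hl : 0 ≤ l)
    (hκ : 0 ≤ κ) :
    ∃ v' ∈ S.M, S.D.SupportedIn K (v' S.vac) ∧
      ‖T (v S.vac)‖ ^ 2 - l * ‖(star v * v) S.vac‖ ^ 2 - κ * ‖v S.vac‖ ^ 2 + c₁
          - l * ((2 + 4 * E) * A * ‖v S.vac‖ ^ 2 + ‖a‖ ^ 4) - κ * A
        ≤ ‖T (v' S.vac)‖ ^ 2 - l * ‖(star v' * v') S.vac‖ ^ 2 - κ * ‖v' S.vac‖ ^ 2 := by
  set ξ := S.vac with hξ
  have hct : ∀ (b : H →L[ℂ] H) (y x : H), Continuous fun t => ⟪y, S.flow t b x⟫_ℂ :=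
    fun b y x => continuous_const.inner (continuous_flow S b x)
  have m1 := (hasMean_flow S herg hω (mul_mem (star_mem ha) ha) ξ ((star v * v) ξ)).re (hct _ _ _)
  have m2 := ((hasMean_flow S herg hω (mul_mem hv (star_mem hv)) (a ξ) (a ξ)).re
    (hct _ _ _)).comp_neg
  have m3 := (hasMean_flow S herg hω (mul_mem ha (star_mem ha)) (v ξ) (v ξ)).re (hct _ _ _)
  rw [← hξ, inner_star_mul, inner_star_mul', ← Complex.ofReal_mul, Complex.ofReal_re] at m1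
  rw [← hξ, inner_mul_star, inner_self_ofReal, ← Complex.ofReal_mul, Complex.ofReal_re] at m2 m3
  have c1 := Complex.continuous_re.comp (hct (star a * a) ((star v * v) ξ) ξ)
  have c2 := (Complex.continuous_re.comp (hct (v * star v) (a ξ) (a ξ))).comp continuous_neg
  have c3 := Complex.continuous_re.comp (hct (a * star a) (v ξ) (v ξ))
  have m4 := hgm.add ((((m1.add m2 c1 c2).add m3 (c1.add c2) c3)).const_mul (-(2 * l))) hg
    (continuous_const.mul ((c1.add c2).add c3))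
  have e1 := hE v hv hvK
  have e2 := hE a ha haK
  have hA0 : 0 ≤ A := (sq_nonneg _).trans hA
  have hlt : c₁ - l * ((2 + 4 * E) * A * ‖v ξ‖ ^ 2) < c₀ + -(2 * l) *
      (‖a ξ‖ ^ 2 * ‖v ξ‖ ^ 2 + ‖star v ξ‖ ^ 2 * ‖a ξ‖ ^ 2 + ‖star a ξ‖ ^ 2 * ‖v ξ‖ ^ 2) := by
    have b1 : ‖a ξ‖ ^ 2 * ‖v ξ‖ ^ 2 ≤ A * ‖v ξ‖ ^ 2 :=
      mul_le_mul_of_nonneg_right hA (sq_nonneg _)
    have b2 : ‖star v ξ‖ ^ 2 * ‖a ξ‖ ^ 2 ≤ (E * ‖v ξ‖ ^ 2) * A :=
      mul_le_mul e1 hA (sq_nonneg _) (by positivity)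
    have b3 : ‖star a ξ‖ ^ 2 * ‖v ξ‖ ^ 2 ≤ (E * A) * ‖v ξ‖ ^ 2 :=
      mul_le_mul_of_nonneg_right (e2.trans (mul_le_mul_of_nonneg_left hA hE0)) (sq_nonneg _)
    have b4 := mul_le_mul_of_nonneg_left (add_le_add (add_le_add b1 b2) b3) hl
    nlinarith
  obtain ⟨t, ht⟩ := m4.exists_gt hω (hg.add (continuous_const.mul ((c1.add c2).add c3))) hlt
  set w := S.flow t a with hw
  have hwM : w ∈ S.M := flow_mem S t ha
  have hwξ : w ξ = S.D.wave t (a ξ) := flow_vac S t a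
  have hwK : S.D.SupportedIn K (w ξ) := by rw [hwξ]; exact SupportedIn.wave haK t
  have f1 : S.flow t (star a * a) = star w * w := by rw [flow_mul, hw, star_flow]
  have f2 : (⟪a ξ, S.flow (-t) (v * star v) (a ξ)⟫_ℂ).re = ‖star v (w ξ)‖ ^ 2 := by
    rw [flow_apply, inner_wave_right, neg_neg, ← hwξ, inner_mul_star, Complex.ofReal_re]
  have f3 : (⟪v ξ, S.flow t (a * star a) (v ξ)⟫_ℂ).re = ‖star w (v ξ)‖ ^ 2 := by
    rw [flow_mul, ← star_flow, ← hw, inner_mul_star, Complex.ofReal_re]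
  rw [f1, f2, f3] at ht
  have g1 := hga t
  rw [← hwξ] at g1
  have g2 : ‖w ξ‖ ^ 2 ≤ A := by rw [hwξ, norm_wave_apply]; exact hA
  have g3 : ‖(star w * w) ξ‖ ^ 2 ≤ ‖a‖ ^ 4 := by
    rw [← f1]
    have h1 := norm_flow_apply_le S t (star a * a) ξ
    rw [hξ, S.norm_vac, mul_one, CStarRing.norm_star_mul_self] at h1
    calc _ ≤ (‖a‖ * ‖a‖) ^ 2 := pow_le_pow_left₀ (norm_nonneg _) h1 2
      _ = _ := by ring
  have p1 := parallelogram (T (v ξ)) (T (w ξ))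
  have p2 := parallelogram (v ξ) (w ξ)
  have p3 := parallelogram ((star v * v) ξ + (star w * w) ξ) (star v (w ξ) + star w (v ξ))
  have p4 := parallelogram (star v (w ξ)) (star w (v ξ))
  have p5 := norm_add_sq (𝕜 := ℂ) ((star v * v) ξ) ((star w * w) ξ)
  have q1 : (star (v + w) * (v + w)) ξ
      = (star v * v) ξ + (star w * w) ξ + (star v (w ξ) + star w (v ξ)) := by
    show (star (v + w)) (v ξ + w ξ) = star v (v ξ) + star w (w ξ) + (star v (w ξ) + star w (v ξ))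
    rw [star_add]
    show star v (v ξ + w ξ) + star w (v ξ + w ξ) = _
    rw [map_add, map_add]; abel
  have q2 : (star (v - w) * (v - w)) ξ
      = (star v * v) ξ + (star w * w) ξ - (star v (w ξ) + star w (v ξ)) := by
    show (star (v - w)) (v ξ - w ξ) = star v (v ξ) + star w (w ξ) - (star v (w ξ) + star w (v ξ))
    rw [star_sub]
    show star v (v ξ - w ξ) - star w (v ξ - w ξ) = _
    rw [map_sub, map_sub]; abel
  have r1 : T ((v + w) ξ) = T (v ξ) + T (w ξ) := map_add T _ _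
  have r2 : T ((v - w) ξ) = T (v ξ) - T (w ξ) := map_sub T _ _
  have r3 : (v + w) ξ = v ξ + w ξ := rfl
  have r4 : (v - w) ξ = v ξ - w ξ := rfl
  have hK1 : S.D.SupportedIn K ((v + w) ξ) := SupportedIn.add hvK hwK
  have hK2 : S.D.SupportedIn K ((v - w) ξ) := by
    have := SupportedIn.add hvK (SupportedIn.smul hwK (-1))
    rwa [neg_one_smul, ← sub_eq_add_neg] at this
  by_contra hcon
  push Not at hcon
  have s1 := hcon (v + w) (add_mem hv hwM) hK1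
  have s2 := hcon (v - w) (sub_mem hv hwM) hK2
  rw [q1, r1, r3] at s1
  rw [q2, r2, r4] at s2
  simp only [RCLike.re_to_complex] at p5
  have u1 : ‖(star v * v) ξ + (star w * w) ξ + (star v (w ξ) + star w (v ξ))‖ ^ 2
      + ‖(star v * v) ξ + (star w * w) ξ - (star v (w ξ) + star w (v ξ))‖ ^ 2
      ≤ 2 * (‖(star v * v) ξ‖ ^ 2 + 2 * (⟪(star v * v) ξ, (star w * w) ξ⟫_ℂ).re + ‖a‖ ^ 4)
        + 4 * ‖star v (w ξ)‖ ^ 2 + 4 * ‖star w (v ξ)‖ ^ 2 := by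
    have := sq_nonneg ‖star v (w ξ) - star w (v ξ)‖
    linarith
  have u2 := mul_le_mul_of_nonneg_left u1 hl
  have u3 := mul_le_mul_of_nonneg_left g2 hκ
  have u4 : κ * (‖v ξ + w ξ‖ ^ 2 + ‖v ξ - w ξ‖ ^ 2) = κ * (2 * ‖v ξ‖ ^ 2 + 2 * ‖w ξ‖ ^ 2) := by
    rw [p2]
  linarith

lemma greedy (S : ModularDatum H) (herg : S.Ergodic) {ω : Ultrafilter ℕ}
    (hω : (ω : Filter ℕ) ≤ atTop) (T : H →L[ℂ] H) (K : Set ℝ) (E : ℝ) (hE0 : 0 ≤ E)
    (hE : ∀ v ∈ S.M, S.D.SupportedIn K (v S.vac) → ‖star v S.vac‖ ^ 2 ≤ E * ‖v S.vac‖ ^ 2)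
    {a : H →L[ℂ] H} (ha : a ∈ S.M) (haK : S.D.SupportedIn K (a S.vac))
    (hA : ‖a S.vac‖ ^ 2 ≤ 4) {g : ℝ → ℝ} (hg : Continuous g) {c₀ c : ℝ} (hgm : HasMean ω g c₀)
    (hga : ∀ t, g t ≤ ‖T (S.D.wave t (a S.vac))‖ ^ 2) (hc0 : 0 < c) (hc : c / 2 < c₀) :
    ∃ v ∈ S.M, S.D.SupportedIn K (v S.vac) ∧
      c / 4 ≤ ‖T (v S.vac)‖ ^ 2 - c / (32 * (8 + 16 * E)) * ‖(star v * v) S.vac‖ ^ 2 := by
  set C := 8 + 16 * E with hC
  have hC0 : 0 < C := by positivity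
  set l := c / (32 * C) with hl
  have hl0 : 0 < l := by positivity
  obtain ⟨N, hN⟩ := exists_nat_gt (8 * l * ‖a‖ ^ 4 / c)
  have hN0 : (0 : ℝ) < N := lt_of_le_of_lt (by positivity) hN
  set q : ℝ := (N : ℝ)⁻¹ with hq
  have hq0 : 0 < q := by positivity
  set θ := Real.sqrt q with hθ
  have hθ2 : θ ^ 2 = q := Real.sq_sqrt hq0.le
  have hθ0 : 0 ≤ θ := Real.sqrt_nonneg _
  have hnθ : ‖(θ : ℂ)‖ = θ := by rw [Complex.norm_real, Real.norm_eq_abs, abs_of_nonneg hθ0]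
  set a' : H →L[ℂ] H := (θ : ℂ) • a with ha'
  have ha'ξ : a' S.vac = (θ : ℂ) • a S.vac := rfl
  have h1 : ‖a' S.vac‖ ^ 2 ≤ 4 * q := by
    rw [ha'ξ, norm_smul, hnθ, mul_pow, hθ2]; nlinarith
  have h2 : ∀ t, q * g t ≤ ‖T (S.D.wave t (a' S.vac))‖ ^ 2 := fun t => by
    rw [ha'ξ, map_smul, map_smul, norm_smul, hnθ, mul_pow, hθ2]
    exact mul_le_mul_of_nonneg_left (hga t) hq0.le
  have h3 : ‖a'‖ ^ 4 = q ^ 2 * ‖a‖ ^ 4 := by
    rw [ha', norm_smul, hnθ, mul_pow, ← hθ2]; ring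
  have h4 : l * q * ‖a‖ ^ 4 ≤ c / 8 := by
    rw [div_lt_iff₀ hc0] at hN
    have : l * q * ‖a‖ ^ 4 = (8 * l * ‖a‖ ^ 4) * q / 8 := by ring
    rw [this]
    have : (8 * l * ‖a‖ ^ 4) * q ≤ (N * c) * q := mul_le_mul_of_nonneg_right hN.le hq0.le
    have e : (N * c) * q = c := by rw [hq]; field_simp
    linarith
  have h5 : l * C = c / 32 := by rw [hl]; field_simp
  have ind : ∀ j : ℕ, j ≤ N → ∃ v ∈ S.M, S.D.SupportedIn K (v S.vac) ∧
      j * q * (c / 4) ≤ ‖T (v S.vac)‖ ^ 2 - l * ‖(star v * v) S.vac‖ ^ 2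
        - l * C * q * (N - j) * ‖v S.vac‖ ^ 2 := by
    intro j
    induction j with
    | zero =>
      intro _
      exact ⟨0, zero_mem _, by simpa using supportedIn_zero S.D K, by simp⟩
    | succ j ih =>
      intro hj
      obtain ⟨v, hv, hvK, hvi⟩ := ih (Nat.le_of_succ_le hj)
      have hj' : ((j + 1 : ℕ) : ℝ) ≤ N := Nat.cast_le.2 hj
      have hκ : 0 ≤ l * C * q * (N - ((j + 1 : ℕ) : ℝ)) :=
        mul_nonneg (by positivity) (by linarith)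
      obtain ⟨v', hv', hv'K, hs⟩ := step S herg hω T K E hE0 hE (smul_mem_vN ha θ)
        (SupportedIn.smul haK θ) h1 (continuous_const.mul hg) (hgm.const_mul q) h2
        (mul_lt_mul_of_pos_left hc hq0) hv hvK hl0.le hκ
      refine ⟨v', hv', hv'K, le_trans ?_ hs⟩
      rw [← ha', h3]
      have hcast : ((j + 1 : ℕ) : ℝ) = j + 1 := Nat.cast_succ j
      rw [hcast] at hκ ⊢
      have k1 : q * (N - (j + 1)) ≤ 1 := by
        have : q * N = 1 := by rw [hq]; field_simp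
        have : 0 ≤ q * (j + 1) := by positivity
        nlinarith
      have k2 : l * C * q * (N - (j + 1)) * (4 * q) ≤ q * (c / 8) := by
        have : l * C * q * (N - (j + 1)) * (4 * q) = q * (c / 8) * (q * (N - (j + 1))) := by
          rw [h5]; ring
        rw [this]
        exact mul_le_of_le_one_right (by positivity) k1
      have k3 : l * (q ^ 2 * ‖a‖ ^ 4) ≤ q * (c / 8) := by
        have := mul_le_mul_of_nonneg_left h4 hq0.le
        nlinarith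
      have k4 : l * ((2 + 4 * E) * (4 * q) * ‖v S.vac‖ ^ 2) = l * C * q * ‖v S.vac‖ ^ 2 := by
        rw [hC]; ring
      linarith
  obtain ⟨v, hv, hvK, hvi⟩ := ind N le_rfl
  refine ⟨v, hv, hvK, ?_⟩
  have : (N : ℝ) * q = 1 := by rw [hq]; field_simp
  rw [this] at hvi
  simpa using hvi

lemma truncate (M : VonNeumannAlgebra H) {v : H →L[ℂ] H} (hv : v ∈ M) {μ : ℝ} (hμ : 0 < μ) :
    ∃ v' ∈ M, ‖v'‖ ≤ 1 / (2 * μ) ∧ ∀ ξ : H, ‖v' ξ - v ξ‖ ≤ μ * ‖(star v * v) ξ‖ := by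
  set η : ℝ := 1 / (2 * μ ^ 2) with hη
  have hη0 : 0 < η := by positivity
  set y : H →L[ℂ] H := (η : ℂ) • 1 + star v * v with hy
  have hyu : IsUnit y := by
    have h1 : -η ∉ spectrum ℝ (star v * v) := fun h => by
      have := spectrum_star_mul_self_nonneg _ h
      linarith
    rw [spectrum.notMem_iff] at h1
    have e : y = -(algebraMap ℝ (H →L[ℂ] H) (-η) - star v * v) := by
      rw [hy, Algebra.algebraMap_eq_smul_one, neg_smul, Complex.coe_smul]; abel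
    rw [e]; exact h1.neg
  obtain ⟨u, hu⟩ := hyu
  set r : H →L[ℂ] H := ↑u⁻¹ with hr
  have hyr : y * r = 1 := by rw [← hu, hr]; simp
  have hry : r * y = 1 := by rw [← hu, hr]; simp
  have hyM : y ∈ M := add_mem (smul_mem_vN (one_mem M) _) (mul_mem (star_mem hv) hv)
  have hrM : r ∈ M := mem_of_commute M fun c hc => by
    have h1 := (VonNeumannAlgebra.mem_commutant_iff.1 hc) y hyM
    calc c * r = (r * y) * c * r := by rw [hry, one_mul]
      _ = r * (y * c) * r := by noncomm_ring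
      _ = r * c * (y * r) := by rw [h1]; noncomm_ring
      _ = r * c := by rw [hyr, mul_one]
  have key : ∀ x : H, ‖v (r x)‖ ≤ μ * ‖x‖ := fun x => by
    set z := r x with hz
    have h1 : x = (η : ℂ) • z + (star v * v) z := by
      have : (y * r) x = x := by rw [hyr]; rfl
      exact this.symm
    have h2 := norm_add_sq (𝕜 := ℂ) ((η : ℂ) • z) ((star v * v) z)
    rw [← h1, inner_smul_left, inner_star_mul, Complex.conj_ofReal, ← Complex.ofReal_mul] at h2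
    simp only [RCLike.re_to_complex, Complex.ofReal_re] at h2
    have h3 : 2 * (η * ‖v z‖ ^ 2) ≤ ‖x‖ ^ 2 := by
      have := sq_nonneg ‖(η : ℂ) • z‖
      have := sq_nonneg ‖(star v * v) z‖
      linarith
    have h4 : ‖v z‖ ^ 2 ≤ (μ * ‖x‖) ^ 2 := by
      have e : ‖v z‖ ^ 2 = μ ^ 2 * (2 * (η * ‖v z‖ ^ 2)) := by rw [hη]; field_simp
      rw [e, mul_pow]
      exact mul_le_mul_of_nonneg_left h3 (sq_nonneg _)
    exact (pow_le_pow_iff_left₀ (norm_nonneg _) (by positivity) two_ne_zero).1 h4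
  refine ⟨(η : ℂ) • (v * r), smul_mem_vN (mul_mem hv hrM) _, ?_, fun ξ => ?_⟩
  · refine ContinuousLinearMap.opNorm_le_bound _ (by positivity) fun x => ?_
    show ‖(η : ℂ) • v (r x)‖ ≤ _
    rw [norm_smul, Complex.norm_real, Real.norm_eq_abs, abs_of_pos hη0]
    calc _ ≤ η * (μ * ‖x‖) := mul_le_mul_of_nonneg_left (key x) hη0.le
      _ = _ := by rw [hη]; field_simp
  · have h1 : ξ = (η : ℂ) • r ξ + r ((star v * v) ξ) := by
      have : (r * y) ξ = ξ := by rw [hry]; rfl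
      rw [← map_smul, ← map_add]
      exact this.symm
    have h2 : ((η : ℂ) • (v * r)) ξ - v ξ = -v (r ((star v * v) ξ)) := by
      show (η : ℂ) • v (r ξ) - v ξ = _
      conv_lhs => rw [show v ξ = v ((η : ℂ) • r ξ + r ((star v * v) ξ)) from congrArg v h1]
      rw [map_add, map_smul]; abel
    rw [h2, norm_neg]
    exact key _

/-- uniform recovery: constants depending only on `T`, `s`, `c` -/
lemma recovery (S : ModularDatum H) (herg : S.Ergodic) {ω : Ultrafilter ℕ}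
    (hω : (ω : Filter ℕ) ≤ atTop) (T : H →L[ℂ] H) (s c : ℝ) (hc : 0 < c) :
    ∃ C η : ℝ, 0 < η ∧ ∀ δ : ℝ, 0 < δ → δ ≤ 1 → ∀ h : H, ‖h‖ = 1 →
      S.D.SupportedIn (Set.Icc (s - δ) (s + δ)) h →
      c ≤ ultraMean ω (fun t : ℝ => ‖T (S.D.wave t h)‖ ^ 2) →
      ∃ v ∈ S.M, ‖v‖ ≤ C ∧ η ≤ ‖T (v S.vac)‖ ∧
        S.D.SupportedIn (Set.Icc (s - 4 * δ) (s + 4 * δ)) (v S.vac) := by
  obtain ⟨K₀, hK₀, hsm⟩ := exists_smoothing
  set E := Real.exp (s + 2) with hEdef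
  have hE0 : 0 < E := Real.exp_pos _
  set l := c / (32 * (8 + 16 * E)) with hl
  have hl0 : 0 < l := by positivity
  set B := ‖T‖ ^ 2 / l with hB
  have hB0 : 0 ≤ B := by positivity
  set ρ := Real.sqrt c with hρ
  have hρ0 : 0 < ρ := Real.sqrt_pos.2 hc
  have hρ2 : ρ ^ 2 = c := Real.sq_sqrt hc.le
  set μ := ρ / (4 * (‖T‖ * B + 1)) with hμ
  have hμ0 : 0 < μ := by positivity
  refine ⟨K₀ * (1 / (2 * μ)), ρ / 4, by positivity, fun δ hδ hδ1 h hh hK hmean => ?_⟩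
  -- approximate `h` by `a ξ`
  set ε := min 1 (c / (12 * ‖T‖ ^ 2 + 1)) with hε
  have hε0 : 0 < ε := lt_min one_pos (by positivity)
  have hε1 : ε ≤ 1 := min_le_left _ _
  have hε2 : 3 * ‖T‖ ^ 2 * ε ≤ c / 4 := by
    have h1 : ε ≤ c / (12 * ‖T‖ ^ 2 + 1) := min_le_right _ _
    rw [le_div_iff₀ (by positivity)] at h1
    nlinarith
  obtain ⟨_, hd, ⟨a₀, rfl⟩⟩ := S.cyclic.inter_nhds_nonempty (Metric.ball_mem_nhds h hε0) |>.imp
    fun _ hx => And.intro hx.2 hx.1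
  obtain ⟨f₁, hf₁n, hf₁1, hf₁0, k₁, hk₁, -, τ₁, hτ₁, hf₁⟩ := hsm s δ hδ
  obtain ⟨a, ha, -, haξ⟩ := exists_smooth_mem S k₁ hk₁ τ₁ hτ₁ f₁ hf₁ a₀.2
  have haK : S.D.SupportedIn (Set.Icc (s - 2 * δ) (s + 2 * δ)) (a S.vac) := by
    rw [haξ]; exact supportedIn_apply_of_vanish S.D f₁ hf₁0 _
  have hah : ‖a S.vac - h‖ ≤ ε := by
    rw [haξ, ← SupportedIn.apply_eq_self hK f₁ hf₁1, ← map_sub]
    refine (norm_apply_apply_le _ _ _).trans ?_
    have h1 : ‖(a₀ : H →L[ℂ] H) S.vac - h‖ ≤ ε := by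
      rw [← dist_eq_norm]; exact (Metric.mem_ball.1 hd).le
    calc _ ≤ 1 * ε := mul_le_mul hf₁n h1 (norm_nonneg _) zero_le_one
      _ = ε := one_mul _
  have ha2 : ‖a S.vac‖ ≤ 2 := by
    have := norm_sub_norm_le (a S.vac) h
    linarith
  have hE : ∀ v ∈ S.M, S.D.SupportedIn (Set.Icc (s - 2 * δ) (s + 2 * δ)) (v S.vac) →
      ‖star v S.vac‖ ^ 2 ≤ E * ‖v S.vac‖ ^ 2 := fun v hv hvK => by
    have h1 := norm_star_vac_le S hv hvK
    have h2 : Real.exp ((s + 2 * δ) / 2) ^ 2 ≤ E := by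
      rw [← Real.exp_nat_mul]
      exact Real.exp_le_exp.2 (by push_cast; linarith)
    calc _ ≤ (Real.exp ((s + 2 * δ) / 2) * ‖v S.vac‖) ^ 2 :=
          pow_le_pow_left₀ (norm_nonneg _) h1 2
      _ = Real.exp ((s + 2 * δ) / 2) ^ 2 * ‖v S.vac‖ ^ 2 := mul_pow _ _ _
      _ ≤ _ := mul_le_mul_of_nonneg_right h2 (sq_nonneg _)
  have hgc : Continuous fun t : ℝ => ‖T (S.D.wave t h)‖ ^ 2 :=
    (T.continuous.comp (continuous_wave S.D h)).norm.pow 2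
  have hTw : ∀ (t : ℝ) (x : H), ‖T (S.D.wave t x)‖ ≤ ‖T‖ * ‖x‖ := fun t x => by
    have := T.le_opNorm (S.D.wave t x)
    rwa [norm_wave_apply] at this
  have hgb : ∀ t : ℝ, ‖‖T (S.D.wave t h)‖ ^ 2‖ ≤ ‖T‖ ^ 2 := fun t => by
    rw [Real.norm_eq_abs, abs_of_nonneg (sq_nonneg _)]
    have := hTw t h
    rw [hh, mul_one] at this
    exact pow_le_pow_left₀ (norm_nonneg _) this 2
  have hm := (hasMean_ultraMean ω hgb).add (hasMean_const hω (-(c / 4))) hgc continuous_const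
  have hga : ∀ t, ‖T (S.D.wave t h)‖ ^ 2 + -(c / 4) ≤ ‖T (S.D.wave t (a S.vac))‖ ^ 2 := fun t => by
    have h1 := hTw t h
    have h2 := hTw t (a S.vac)
    have h3 := hTw t (a S.vac - h)
    rw [map_sub, map_sub, norm_sub_rev] at h3
    have h4 := norm_sub_norm_le (T (S.D.wave t h)) (T (S.D.wave t (a S.vac)))
    rw [hh] at h1
    have h5 : ‖T‖ * ‖a S.vac - h‖ ≤ ‖T‖ * ε := mul_le_mul_of_nonneg_left hah (norm_nonneg _)
    have h6 : ‖T‖ * ‖a S.vac‖ ≤ ‖T‖ * 2 := mul_le_mul_of_nonneg_left ha2 (norm_nonneg _)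
    have h7 : (‖T (S.D.wave t h)‖ - ‖T (S.D.wave t (a S.vac))‖)
        * (‖T (S.D.wave t h)‖ + ‖T (S.D.wave t (a S.vac))‖) ≤ (‖T‖ * ε) * (3 * ‖T‖) :=
      mul_le_mul (by linarith) (by linarith) (by positivity) (by positivity)
    nlinarith
  obtain ⟨v, hv, hvK, hvi⟩ := greedy S herg hω T _ E hE0.le hE ha haK (by nlinarith [norm_nonneg (a S.vac)])
    (hgc.add continuous_const) hm hga hc (by linarith)
  rw [← hl] at hvi
  have hQ : ‖(star v * v) S.vac‖ ≤ B := by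
    have h1 : ‖v S.vac‖ ^ 2 ≤ ‖(star v * v) S.vac‖ := by
      have := norm_inner_le_norm (𝕜 := ℂ) S.vac ((star v * v) S.vac)
      rwa [inner_star_mul, S.norm_vac, one_mul, Complex.norm_real, Real.norm_eq_abs,
        abs_of_nonneg (sq_nonneg _)] at this
    have h2 : ‖T (v S.vac)‖ ^ 2 ≤ ‖T‖ ^ 2 * ‖v S.vac‖ ^ 2 := by
      rw [← mul_pow]; exact pow_le_pow_left₀ (norm_nonneg _) (T.le_opNorm _) 2
    have h3 := mul_le_mul_of_nonneg_left h1 (sq_nonneg ‖T‖)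
    rw [hB, le_div_iff₀ hl0]
    by_contra hcon
    push Not at hcon
    have h4 := mul_le_mul_of_nonneg_right hcon.le (norm_nonneg ((star v * v) S.vac))
    nlinarith
  have hTv : ρ / 2 ≤ ‖T (v S.vac)‖ := by
    have : (ρ / 2) ^ 2 ≤ ‖T (v S.vac)‖ ^ 2 := by
      have := mul_nonneg hl0.le (sq_nonneg ‖(star v * v) S.vac‖)
      nlinarith
    exact (pow_le_pow_iff_left₀ (by positivity) (norm_nonneg _) two_ne_zero).1 this
  obtain ⟨v', hv', hv'n, hv'ξ⟩ := truncate S.M hv hμ0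
  obtain ⟨f₂, hf₂n, hf₂1, hf₂0, k₂, hk₂, hk₂K, τ₂, hτ₂, hf₂⟩ := hsm s (2 * δ) (by positivity)
  obtain ⟨v'', hv'', hv''n, hv''ξ⟩ := exists_smooth_mem S k₂ hk₂ τ₂ hτ₂ f₂ hf₂ hv'
  refine ⟨v'', hv'', hv''n.trans (mul_le_mul hk₂K hv'n (norm_nonneg _) hK₀), ?_, ?_⟩
  · have h1 : ‖v'' S.vac - v S.vac‖ ≤ μ * B := by
      rw [hv''ξ, ← SupportedIn.apply_eq_self hvK f₂ hf₂1, ← map_sub]
      refine (norm_apply_apply_le _ _ _).trans ?_
      calc _ ≤ 1 * (μ * B) := mul_le_mul hf₂n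
            ((hv'ξ _).trans (mul_le_mul_of_nonneg_left hQ hμ0.le)) (norm_nonneg _) zero_le_one
        _ = _ := one_mul _
    have h2 := T.le_opNorm (v'' S.vac - v S.vac)
    rw [map_sub, norm_sub_rev] at h2
    have h3 := norm_sub_norm_le (T (v S.vac)) (T (v'' S.vac))
    have h4 := mul_le_mul_of_nonneg_left h1 (norm_nonneg T)
    have h5 : ‖T‖ * (μ * B) ≤ ρ / 4 := by
      have e : ρ / 4 = μ * (‖T‖ * B + 1) := by rw [hμ]; field_simp
      rw [e]; nlinarith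
    linarith
  · rw [hv''ξ]
    refine supportedIn_apply_of_vanish S.D f₂ (fun u hu => hf₂0 u ?_) _
    rwa [show 2 * (2 * δ) = 4 * δ by ring]

end Crest.Agent.R84
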