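import Mathlib
import Crest.Prelude.Def_ModularData

/-! Invariant means along an ultrafilter. -/

set_option autoImplicit false

namespace Crest.Agent.R84

open Crest.OpAlg MeasureTheory Filter
open scoped Topology

variable {E : Type*} [NormedAddCommGroup E] [NormedSpace ℝ E]

/-- window average written with an interval integral -/
noncomputable def avg (g : ℝ → E) (k : ℕ) : E :=
  (2 * (k : ℝ))⁻¹ • ∫ t in (-(k : ℝ))..(k : ℝ), g t

lemma windowMean_eq (f : ℝ → ℝ) (k : ℕ) : windowMean f k = avg f k := by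
  have hk : -(k : ℝ) ≤ k := by have : (0 : ℝ) ≤ k := Nat.cast_nonneg k; linarith
  rw [windowMean, avg, setAverage_eq, intervalIntegral.integral_of_le hk,
    integral_Icc_eq_integral_Ioc, Real.volume_real_Icc_of_le hk]
  congr 2; ring

/-- `z` is the `ω`-mean of `g` -/
def HasMean (ω : Ultrafilter ℕ) (g : ℝ → E) (z : E) : Prop :=
  Tendsto (avg g) (ω : Filter ℕ) (𝓝 z)

lemma norm_avg_le {g : ℝ → E} {C : ℝ} (hC : ∀ t, ‖g t‖ ≤ C) (k : ℕ) : ‖avg g k‖ ≤ C := by
  have hC0 : 0 ≤ C := (norm_nonneg _).trans (hC 0)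
  rcases Nat.eq_zero_or_pos k with rfl | hk
  · simp [avg, hC0]
  have hk' : (0 : ℝ) < k := Nat.cast_pos.2 hk
  rw [avg, norm_smul]
  have := intervalIntegral.norm_integral_le_of_norm_le_const (a := -(k : ℝ)) (b := k) (f := g)
    (C := C) (fun x _ => hC x)
  have e : |(k : ℝ) - -(k : ℝ)| = 2 * k := by rw [abs_of_nonneg (by linarith)]; ring
  rw [e] at this
  rw [Real.norm_eq_abs, abs_of_nonneg (by positivity)]
  calc _ ≤ (2 * (k : ℝ))⁻¹ * (C * (2 * k)) := mul_le_mul_of_nonneg_left this (by positivity)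
    _ = C := by field_simp

lemma exists_tendsto_ultra [ProperSpace E] (ω : Ultrafilter ℕ) (a : ℕ → E) {C : ℝ}
    (hC : ∀ k, ‖a k‖ ≤ C) : ∃ z, Tendsto a (ω : Filter ℕ) (𝓝 z) := by
  obtain ⟨z, -, hz⟩ := (isCompact_closedBall (0 : E) C).ultrafilter_le_nhds (ω.map a) (by
    rw [Ultrafilter.coe_map, le_principal_iff, mem_map]
    exact Eventually.of_forall fun k => by simpa using hC k)
  exact ⟨z, hz⟩

lemma exists_hasMean [ProperSpace E] (ω : Ultrafilter ℕ) {g : ℝ → E} {C : ℝ}
    (hC : ∀ t, ‖g t‖ ≤ C) : ∃ z, HasMean ω g z :=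
  exists_tendsto_ultra ω _ (norm_avg_le hC)

lemma hasMean_ultraMean (ω : Ultrafilter ℕ) {g : ℝ → ℝ} {C : ℝ} (hC : ∀ t, ‖g t‖ ≤ C) :
    HasMean ω g (ultraMean ω g) := by
  have e : windowMean g = avg g := funext (windowMean_eq g)
  rw [HasMean, ultraMean, e]
  exact tendsto_nhds_limUnder (exists_hasMean ω hC)

lemma HasMean.unique {ω : Ultrafilter ℕ} {g : ℝ → E} {z w : E} (h : HasMean ω g z)
    (h' : HasMean ω g w) : z = w := tendsto_nhds_unique h h'

lemma HasMean.norm_le {ω : Ultrafilter ℕ} {g : ℝ → E} {z : E} (h : HasMean ω g z) {C : ℝ}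
    (hC : ∀ t, ‖g t‖ ≤ C) : ‖z‖ ≤ C :=
  le_of_tendsto h.norm (Eventually.of_forall (norm_avg_le hC))

lemma HasMean.add {ω : Ultrafilter ℕ} {f g : ℝ → E} {z w : E} (h : HasMean ω f z)
    (h' : HasMean ω g w) (hf : Continuous f) (hg : Continuous g) :
    HasMean ω (fun t => f t + g t) (z + w) := by
  refine (Tendsto.add h h').congr fun k => ?_
  simp only [avg]
  rw [intervalIntegral.integral_add (hf.intervalIntegrable _ _) (hg.intervalIntegrable _ _),
    smul_add]

lemma HasMean.clm {F : Type*} [NormedAddCommGroup F] [NormedSpace ℝ F] [CompleteSpace E]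
    [CompleteSpace F]
    {ω : Ultrafilter ℕ} {g : ℝ → E} {z : E} (h : HasMean ω g z) (hg : Continuous g)
    (L : E →L[ℝ] F) : HasMean ω (fun t => L (g t)) (L z) := by
  refine ((L.continuous.tendsto z).comp h).congr fun k => ?_
  simp only [avg, Function.comp]
  rw [map_smul, L.intervalIntegral_comp_comm (hg.intervalIntegrable _ _)]

lemma HasMean.const_mul {ω : Ultrafilter ℕ} {g : ℝ → ℝ} {z : ℝ} (h : HasMean ω g z) (c : ℝ) :
    HasMean ω (fun t => c * g t) (c * z) := by
  refine (Tendsto.const_mul c h).congr fun k => ?_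
  simp only [avg, smul_eq_mul]
  rw [intervalIntegral.integral_const_mul]; ring

lemma HasMean.cconst_mul {ω : Ultrafilter ℕ} {g : ℝ → ℂ} {z : ℂ} (h : HasMean ω g z) (c : ℂ) :
    HasMean ω (fun t => c * g t) (c * z) := by
  refine (Tendsto.const_mul c h).congr fun k => ?_
  simp only [avg]
  rw [intervalIntegral.integral_const_mul, mul_smul_comm]

lemma HasMean.re {ω : Ultrafilter ℕ} {g : ℝ → ℂ} {z : ℂ} (h : HasMean ω g z) (hg : Continuous g) :
    HasMean ω (fun t => (g t).re) z.re := h.clm hg Complex.reCLM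

lemma hasMean_const [CompleteSpace E] {ω : Ultrafilter ℕ} (hω : (ω : Filter ℕ) ≤ atTop) (c : E) :
    HasMean ω (fun _ => c) c := by
  refine tendsto_const_nhds.congr' (hω ?_)
  filter_upwards [eventually_gt_atTop 0] with k hk
  have hk' : (0 : ℝ) < k := Nat.cast_pos.2 hk
  simp only [avg, intervalIntegral.integral_const, smul_smul]
  rw [show (2 * (k : ℝ))⁻¹ * ((k : ℝ) - -(k : ℝ)) = 1 by field_simp; ring, one_smul]

lemma HasMean.comp_neg {ω : Ultrafilter ℕ} {g : ℝ → E} {z : E} (h : HasMean ω g z) :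
    HasMean ω (fun t => g (-t)) z := by
  refine Tendsto.congr (fun k => ?_) h
  simp only [avg]
  rw [intervalIntegral.integral_comp_neg, neg_neg]

lemma HasMean.comp_add {ω : Ultrafilter ℕ} (hω : (ω : Filter ℕ) ≤ atTop) {g : ℝ → E} {z : E}
    (h : HasMean ω g z) (hg : Continuous g) {C : ℝ} (hC : ∀ t, ‖g t‖ ≤ C) (s : ℝ) :
    HasMean ω (fun t => g (t + s)) z := by
  have hC0 : 0 ≤ C := (norm_nonneg _).trans (hC 0)
  have key : Tendsto (fun k : ℕ => avg (fun t => g (t + s)) k - avg g k) atTop (𝓝 0) := by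
    have hb : ∀ k : ℕ, ‖avg (fun t => g (t + s)) k - avg g k‖ ≤ (C * |s|) * (k : ℝ)⁻¹ := by
      intro k
      simp only [avg]
      rw [← smul_sub, intervalIntegral.integral_comp_add_right, norm_smul]
      have i := fun a b : ℝ => hg.intervalIntegrable (μ := volume) a b
      have e : (∫ t in (-(k : ℝ) + s)..((k : ℝ) + s), g t) - ∫ t in (-(k : ℝ))..(k : ℝ), g t
          = (∫ t in (k : ℝ)..((k : ℝ) + s), g t) - ∫ t in (-(k : ℝ))..(-(k : ℝ) + s), g t := by
        rw [← intervalIntegral.integral_add_adjacent_intervals (i (-(k : ℝ) + s) k) (i k (k + s)),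
          ← intervalIntegral.integral_add_adjacent_intervals (i (-(k : ℝ)) (-(k : ℝ) + s))
            (i (-(k : ℝ) + s) k)]
        abel
      rw [e]
      have h1 := intervalIntegral.norm_integral_le_of_norm_le_const (a := (k : ℝ)) (b := k + s)
        (f := g) (C := C) (fun x _ => hC x)
      have h2 := intervalIntegral.norm_integral_le_of_norm_le_const (a := -(k : ℝ))
        (b := -(k : ℝ) + s) (f := g) (C := C) (fun x _ => hC x)
      rw [add_sub_cancel_left] at h1 h2
      have h3 := (norm_sub_le _ _).trans (add_le_add h1 h2)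
      rw [Real.norm_eq_abs, abs_of_nonneg (by positivity)]
      calc _ ≤ (2 * (k : ℝ))⁻¹ * (C * |s| + C * |s|) :=
            mul_le_mul_of_nonneg_left h3 (by positivity)
        _ = _ := by rw [mul_inv]; ring
    have h0 : Tendsto (fun k : ℕ => (C * |s|) * (k : ℝ)⁻¹) atTop (𝓝 0) := by
      simpa using (tendsto_inv_atTop_nhds_zero_nat (𝕜 := ℝ)).const_mul (C * |s|)
    exact squeeze_zero_norm hb h0
  have := (key.mono_left hω).add h
  simpa [HasMean] using this

lemma HasMean.exists_gt {ω : Ultrafilter ℕ} (hω : (ω : Filter ℕ) ≤ atTop) {g : ℝ → ℝ} {z r : ℝ}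
    (h : HasMean ω g z) (hg : Continuous g) (hr : r < z) : ∃ t, r < g t := by
  by_contra hcon
  push Not at hcon
  have : z ≤ r := by
    refine le_of_tendsto h (hω ?_)
    filter_upwards [eventually_gt_atTop 0] with k hk
    have hk' : (0 : ℝ) < k := Nat.cast_pos.2 hk
    have := intervalIntegral.integral_mono_on (a := -(k : ℝ)) (b := k) (μ := volume)
      (by linarith) (hg.intervalIntegrable _ _) (continuous_const.intervalIntegrable _ _)
      (g := fun _ => r) (fun x _ => hcon x)
    simp only [intervalIntegral.integral_const, smul_eq_mul] at this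
    simp only [avg, smul_eq_mul, Set.mem_setOf_eq]
    calc _ ≤ (2 * (k : ℝ))⁻¹ * (((k : ℝ) - -(k : ℝ)) * r) :=
          mul_le_mul_of_nonneg_left this (by positivity)
      _ = r := by field_simp; ring
  linarith

end Crest.Agent.R84
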