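import Crest.Agent.R84.Calc
import Crest.Agent.R84.Mean

/-! Consequences of the Tomita condition and of ergodicity. -/

set_option autoImplicit false

namespace Crest.Agent.R84

open Crest.OpAlg Crest.OpAlg.LineCalculus MeasureTheory Filter
open scoped InnerProductSpace Topology ComplexConjugate

variable {H : Type*} [NormedAddCommGroup H] [InnerProductSpace ℂ H] [CompleteSpace H]

local notation "BC" => BoundedContinuousFunction ℝ ℂ

omit [CompleteSpace H] in
lemma inner_antiiso (J : H ≃ₗᵢ⋆[ℂ] H) (z w : H) : ⟪J z, J w⟫_ℂ = ⟪w, z⟫_ℂ := by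
  have hre : ∀ z w : H, (⟪J z, J w⟫_ℂ).re = (⟪z, w⟫_ℂ).re := by
    intro z w
    have h1 := re_inner_eq_norm_add_mul_self_sub_norm_sub_mul_self_div_four (𝕜 := ℂ) (J z) (J w)
    have h2 := re_inner_eq_norm_add_mul_self_sub_norm_sub_mul_self_div_four (𝕜 := ℂ) z w
    rw [← map_add, ← map_sub, J.norm_map, J.norm_map] at h1
    exact h1.trans h2.symm
  apply Complex.ext
  · rw [hre, ← inner_conj_symm w z, Complex.conj_re]
  · have h := hre z (Complex.I • w)
    rw [LinearIsometryEquiv.map_smulₛₗ, inner_smul_right, inner_smul_right] at h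
    rw [← inner_conj_symm w z, Complex.conj_im]
    simpa using h

/-- a compactly supported function times a continuous function, as a bounded function -/
noncomputable def ccMul (f : BC) (hf : HasCompactSupport (f : ℝ → ℂ)) (g : ℝ → ℂ)
    (hg : Continuous g) : BC :=
  ofCompactSupport (fun u => f u * g u) (f.continuous.mul hg) (hf.mul_right (f' := g))

lemma ccMul_apply (f : BC) (hf : HasCompactSupport (f : ℝ → ℂ)) (g : ℝ → ℂ)
    (hg : Continuous g) (u : ℝ) : ccMul f hf g hg u = f u * g u := rfl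

lemma ccMul_cc (f : BC) (hf : HasCompactSupport (f : ℝ → ℂ)) (g : ℝ → ℂ)
    (hg : Continuous g) : HasCompactSupport (ccMul f hf g hg : ℝ → ℂ) :=
  hf.mul_right (f' := g)

lemma halfExp_of_mem (S : ModularDatum H) {a : H →L[ℂ] H} (ha : a ∈ S.M) :
    S.D.HalfExp (a S.vac) (S.J (star a S.vac)) := by
  have : ((a S.vac, star a S.vac) : H × H) ∈ {p : H × H | S.D.HalfExp p.1 (S.J p.2)} := by
    rw [← S.tomita]
    exact subset_closure ⟨⟨a, ha⟩, rfl⟩
  exact this

lemma inner_of_halfExp (S : ModularDatum H) {x y : H} (h : S.D.HalfExp x (S.J y)) :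
    ⟪y, S.vac⟫_ℂ = ⟪S.vac, x⟫_ℂ := by
  have : ((x, y) : H × H) ∈ closure (Set.range fun a : S.M =>
      ((a : H →L[ℂ] H) S.vac, star (a : H →L[ℂ] H) S.vac)) := by
    rw [S.tomita]; exact h
  have hc : IsClosed {p : H × H | ⟪p.2, S.vac⟫_ℂ = ⟪S.vac, p.1⟫_ℂ} :=
    isClosed_eq (by fun_prop) (by fun_prop)
  refine closure_minimal ?_ hc this
  rintro _ ⟨a, rfl⟩
  show ⟪star (a : H →L[ℂ] H) S.vac, S.vac⟫_ℂ = ⟪S.vac, (a : H →L[ℂ] H) S.vac⟫_ℂ
  rw [ContinuousLinearMap.star_eq_adjoint, ContinuousLinearMap.adjoint_inner_left]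

lemma continuous_halfExp : Continuous fun u : ℝ => ((Real.exp (u / 2) : ℝ) : ℂ) := by fun_prop

lemma apply_exp_vac (S : ModularDatum H) (f : BC) (hf : HasCompactSupport (f : ℝ → ℂ)) :
    S.D.apply (ccMul f hf _ continuous_halfExp) (S.J S.vac) = S.D.apply f S.vac := by
  refine ext_inner_right ℂ fun u => ?_
  have hf' : HasCompactSupport (star f : BC) := hf.comp_left (g := star) (star_zero _)
  set g := ccMul (star f) hf' _ continuous_halfExp with hg
  have h1 : S.D.HalfExp (S.D.apply (star f) u) (S.J (S.J (S.D.apply g u))) := by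
    rw [S.J_J]
    intro f' g' hfg
    rw [← apply_mul_apply, ← apply_mul_apply]
    congr 2
    ext v
    simp only [BoundedContinuousFunction.coe_mul, Pi.mul_apply, hg, ccMul_apply, hfg v]
    ring
  have h2 := inner_of_halfExp S h1
  have h3 : ⟪S.J (S.D.apply g u), S.vac⟫_ℂ = ⟪S.J S.vac, S.D.apply g u⟫_ℂ := by
    conv_lhs => rw [← S.J_J S.vac]
    exact inner_antiiso _ _ _
  have h4 : g = star (ccMul f hf _ continuous_halfExp) := by
    ext v
    simp only [hg, ccMul_apply, BoundedContinuousFunction.star_apply, star_mul', Complex.star_def,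
      Complex.conj_ofReal]
  rw [h3, h4, map_star, map_star, ContinuousLinearMap.star_eq_adjoint,
    ContinuousLinearMap.star_eq_adjoint, ContinuousLinearMap.adjoint_inner_right,
    ContinuousLinearMap.adjoint_inner_right] at h2
  exact h2

lemma wave_vac (S : ModularDatum H) (t : ℝ) : S.D.wave t S.vac = S.vac := by
  have h0 : S.D.HalfExp S.vac (S.J S.vac) := by
    simpa using halfExp_of_mem S (one_mem S.M)
  -- f(e^u - 1) kills the vacuum
  have key : ∀ (f g : BC), HasCompactSupport (f : ℝ → ℂ) →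
      (∀ u, g u = f u * (((Real.exp u : ℝ) : ℂ) - 1)) → S.D.apply g S.vac = 0 := by
    intro f g hf hg
    have h1 := apply_exp_vac S f hf
    have h2 := h0 (ccMul f hf _ continuous_halfExp) (g + f) (fun u => by
      simp only [BoundedContinuousFunction.coe_add, Pi.add_apply, hg u, ccMul_apply]
      have : Real.exp u = Real.exp (u / 2) * Real.exp (u / 2) := by
        rw [← Real.exp_add]; congr 1; ring
      rw [this]; push_cast; ring)
    rw [h1, map_add] at h2
    have h3 : S.D.apply g S.vac + S.D.apply f S.vac = S.D.apply f S.vac := h2.symm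
    simpa using h3
  rw [← sub_eq_zero]
  refine eq_zero_of_cc S.D _ fun g hg => ?_
  set e : ℝ → ℂ := fun u => ((Real.exp u : ℝ) : ℂ) with he
  set χ : ℝ → ℂ := fun u => character t u with hχ
  have hed : Differentiable ℝ e := by
    intro u
    exact (Complex.ofRealCLM.differentiable _).comp u Real.differentiable_exp.differentiableAt
  have hχd : Differentiable ℝ χ := by
    intro u
    have : χ = fun u : ℝ => Complex.exp (Complex.I * t * Complex.ofRealCLM u) := by
      ext v; simp only [hχ, character_apply]; congr 1; simp; ring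
    rw [this]; fun_prop
  have hc : ∀ φ : ℝ → ℂ, Differentiable ℝ φ → Continuous (dslope φ 0) := fun φ hφ => by
    rw [← continuousOn_univ, continuousOn_dslope univ_mem]
    exact ⟨hφ.continuous.continuousOn, hφ 0⟩
  have hne : ∀ u, dslope e 0 u ≠ 0 := by
    intro u hu
    by_cases h : u = 0
    · subst h
      rw [dslope_same] at hu
      have : HasDerivAt e ((Real.exp 0 : ℝ) : ℂ) 0 := (Real.hasDerivAt_exp 0).ofReal_comp
      rw [this.deriv] at hu
      simp at hu
    · have := sub_smul_dslope e 0 u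
      rw [hu, smul_zero, eq_comm, sub_eq_zero] at this
      simp only [he, Complex.ofReal_inj, Real.exp_eq_exp] at this
      exact h this
  have hq : Continuous fun u => dslope χ 0 u / dslope e 0 u :=
    (hc χ hχd).div (hc e hed) hne
  have := key (ccMul g hg _ hq) (g * (character t - 1)) (ccMul_cc _ _ _ _) (fun u => by
    have a1 := sub_smul_dslope e 0 u
    have a2 := sub_smul_dslope χ 0 u
    have b1 : e 0 = 1 := by simp [he]
    have b2 : χ 0 = 1 := by simp [hχ, character_apply]
    rw [b1] at a1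
    rw [b2] at a2
    simp only [BoundedContinuousFunction.coe_mul, BoundedContinuousFunction.coe_sub, Pi.mul_apply,
      Pi.sub_apply, ccMul_apply, BoundedContinuousFunction.coe_one, Pi.one_apply]
    change g u * (χ u - 1) = g u * (dslope χ 0 u / dslope e 0 u) * (e u - 1)
    rw [← a1, ← a2]
    have := hne u
    simp only [Complex.real_smul]
    field_simp)
  rw [apply_mul_apply, map_sub, map_one] at this
  exact this

lemma norm_star_vac_le (S : ModularDatum H) {v : H →L[ℂ] H} (hv : v ∈ S.M) {α β : ℝ}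
    (hs : S.D.SupportedIn (Set.Icc α β) (v S.vac)) :
    ‖star v S.vac‖ ≤ Real.exp (β / 2) * ‖v S.vac‖ := by
  rw [← S.J.norm_map]
  refine le_of_forall_pos_le_add fun ε hε => ?_
  obtain ⟨f, hf, hf1, hfx⟩ := window_one S.D (S.J (star v S.vac)) hε
  have h1 := halfExp_of_mem S hv f (ccMul f hf _ continuous_halfExp) (fun u => rfl)
  have hc : Continuous fun u : ℝ => ((Real.exp (min u β / 2) : ℝ) : ℂ) := by fun_prop
  have h2 := SupportedIn.apply_congr hs (ccMul f hf _ continuous_halfExp) (ccMul f hf _ hc)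
    (fun u hu => by simp only [ccMul_apply, min_eq_left hu.2])
  have h3 : ‖ccMul f hf _ hc‖ ≤ Real.exp (β / 2) := by
    refine (BoundedContinuousFunction.norm_le (Real.exp_pos _).le).2 fun u => ?_
    rw [ccMul_apply, norm_mul, Complex.norm_real, Real.norm_eq_abs, abs_of_pos (Real.exp_pos _)]
    have a1 : ‖f u‖ ≤ 1 := (f.norm_coe_le_norm u).trans hf1
    have a2 : Real.exp (min u β / 2) ≤ Real.exp (β / 2) :=
      Real.exp_le_exp.2 (by have := min_le_right u β; linarith)
    calc _ ≤ 1 * Real.exp (β / 2) := mul_le_mul a1 a2 (Real.exp_pos _).le zero_le_one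
      _ = _ := one_mul _
  have h4 := (norm_apply_apply_le S.D (ccMul f hf _ hc) (v S.vac)).trans
    (mul_le_mul_of_nonneg_right h3 (norm_nonneg _))
  rw [← h2, ← h1] at h4
  have h5 := norm_sub_norm_le (S.J (star v S.vac)) (S.D.apply f (S.J (star v S.vac)))
  rw [norm_sub_rev] at h5
  linarith

lemma mem_of_commute (M : VonNeumannAlgebra H) {a : H →L[ℂ] H}
    (h : ∀ c ∈ M.commutant, c * a = a * c) : a ∈ M := by
  rw [← M.commutant_commutant, VonNeumannAlgebra.mem_commutant_iff]
  exact h

lemma commute_of_mem {M : VonNeumannAlgebra H} {a c : H →L[ℂ] H} (ha : a ∈ M)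
    (hc : c ∈ M.commutant) (x : H) : a (c x) = c (a x) := by
  have := (VonNeumannAlgebra.mem_commutant_iff.1 hc) a ha
  exact congrArg (fun L : H →L[ℂ] H => L x) this

lemma flow_apply (S : ModularDatum H) (t : ℝ) (a : H →L[ℂ] H) (x : H) :
    S.flow t a x = S.D.wave t (a (S.D.wave (-t) x)) := rfl

lemma flow_mem (S : ModularDatum H) (t : ℝ) {a : H →L[ℂ] H} (ha : a ∈ S.M) :
    S.flow t a ∈ S.M := S.flow_mem t a ha

lemma flow_vac (S : ModularDatum H) (t : ℝ) (a : H →L[ℂ] H) :
    S.flow t a S.vac = S.D.wave t (a S.vac) := by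
  rw [flow_apply, wave_vac]

lemma norm_flow_apply_le (S : ModularDatum H) (t : ℝ) (a : H →L[ℂ] H) (x : H) :
    ‖S.flow t a x‖ ≤ ‖a‖ * ‖x‖ := by
  rw [flow_apply, norm_wave_apply]
  refine (a.le_opNorm _).trans ?_
  rw [norm_wave_apply]

lemma star_flow (S : ModularDatum H) (t : ℝ) (a : H →L[ℂ] H) :
    star (S.flow t a) = S.flow t (star a) := by
  simp only [ModularDatum.flow, star_mul, star_wave, neg_neg, mul_assoc]

lemma flow_mul (S : ModularDatum H) (t : ℝ) (a b : H →L[ℂ] H) :
    S.flow t (a * b) = S.flow t a * S.flow t b := by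
  ext x
  show S.D.wave t (a (b (S.D.wave (-t) x))) = S.flow t a (S.flow t b x)
  rw [flow_apply, flow_apply, wave_neg_wave]

lemma continuous_flow (S : ModularDatum H) (a : H →L[ℂ] H) (x : H) :
    Continuous fun t => S.flow t a x := by
  have h1 : Continuous fun t => a (S.D.wave (-t) x) :=
    a.continuous.comp ((continuous_wave S.D x).comp continuous_neg)
  rw [continuous_iff_continuousAt]
  intro t₀
  have h2 : Tendsto (fun t => S.D.wave t (a (S.D.wave (-t₀) x))) (𝓝 t₀) (𝓝 (S.flow t₀ a x)) :=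
    (continuous_wave S.D _).tendsto t₀
  have h3 : Tendsto (fun t => S.D.wave t (a (S.D.wave (-t) x) - a (S.D.wave (-t₀) x))) (𝓝 t₀)
      (𝓝 0) := by
    rw [tendsto_zero_iff_norm_tendsto_zero]
    simp only [norm_wave_apply]
    exact tendsto_iff_norm_sub_tendsto_zero.1 (h1.tendsto t₀)
  have := h3.add h2
  rw [zero_add] at this
  refine this.congr fun t => ?_
  rw [map_sub, flow_apply]; abel

/-- The mean ergodic statement: the mean of `σ_t(b)` is the scalar `φ(b)`. -/
lemma hasMean_flow (S : ModularDatum H) (herg : S.Ergodic) {ω : Ultrafilter ℕ}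
    (hω : (ω : Filter ℕ) ≤ atTop) {b : H →L[ℂ] H} (hb : b ∈ S.M) (x y : H) :
    HasMean ω (fun t => ⟪y, S.flow t b x⟫_ℂ) (⟪S.vac, b S.vac⟫_ℂ * ⟪y, x⟫_ℂ) := by
  have hbd : ∀ (y x : H) (t : ℝ), ‖⟪y, S.flow t b x⟫_ℂ‖ ≤ ‖b‖ * ‖y‖ * ‖x‖ := fun y x t => by
    refine (norm_inner_le_norm _ _).trans ?_
    have := mul_le_mul_of_nonneg_left (norm_flow_apply_le S t b x) (norm_nonneg y)
    linarith
  have hct : ∀ y x : H, Continuous fun t => ⟪y, S.flow t b x⟫_ℂ := fun y x =>
    continuous_const.inner (continuous_flow S b x)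
  choose m hm using fun y x : H => exists_hasMean ω (hbd y x)
  let B₀ : H →ₛₗ[starRingEnd ℂ] H →ₗ[ℂ] ℂ := LinearMap.mk₂'ₛₗ (starRingEnd ℂ) (RingHom.id ℂ) m
    (fun y y' x => (hm _ _).unique (by
      simpa only [inner_add_left] using (hm y x).add (hm y' x) (hct _ _) (hct _ _)))
    (fun c y x => (hm _ _).unique (by
      simpa only [inner_smul_left, smul_eq_mul] using (hm y x).cconst_mul (conj c)))
    (fun y x x' => (hm _ _).unique (by
      simpa only [map_add, inner_add_right] using (hm y x).add (hm y x') (hct _ _) (hct _ _)))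
    (fun c y x => (hm _ _).unique (by
      simpa only [map_smul, inner_smul_right, smul_eq_mul, RingHom.id_apply] using
        (hm y x).cconst_mul c))
  let B : H →L⋆[ℂ] H →L[ℂ] ℂ := B₀.mkContinuous₂ ‖b‖ fun y x => (hm y x).norm_le (hbd y x)
  let L : H →L[ℂ] H := star (InnerProductSpace.continuousLinearMapOfBilin B)
  have hL : ∀ y x, ⟪y, L x⟫_ℂ = m y x := fun y x => by
    simp only [L]
    rw [ContinuousLinearMap.star_eq_adjoint, ContinuousLinearMap.adjoint_inner_right,
      InnerProductSpace.continuousLinearMapOfBilin_apply]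
    rfl
  have hLM : L ∈ S.M := by
    refine mem_of_commute _ fun c hc => ?_
    ext x
    refine ext_inner_left ℂ fun y => ?_
    show ⟪y, c (L x)⟫_ℂ = ⟪y, L (c x)⟫_ℂ
    rw [← ContinuousLinearMap.adjoint_inner_left, hL, hL]
    refine (hm _ _).unique ?_
    have := hm y (c x)
    simp only [commute_of_mem (flow_mem S _ hb) hc] at this
    simpa only [ContinuousLinearMap.adjoint_inner_left] using this
  have hLf : ∀ s, S.flow s L = L := fun s => by
    ext x
    refine ext_inner_left ℂ fun y => ?_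
    rw [flow_apply, inner_wave_right, hL, hL]
    refine (hm _ _).unique ?_
    have := (hm y x).comp_add hω (hct _ _) (hbd y x) s
    refine Tendsto.congr (fun k => ?_) this
    congr 1
    ext t
    rw [← inner_wave_right, flow_apply, flow_apply, wave_wave, wave_wave, add_comm s t]
    rw [show -t + -s = -(t + s) by ring]
  obtain ⟨c, hc⟩ := herg L hLM hLf
  have hv : ⟪S.vac, S.vac⟫_ℂ = 1 := by
    rw [inner_self_eq_norm_sq_to_K, S.norm_vac]; simp
  have hcv : c = ⟪S.vac, b S.vac⟫_ℂ := by
    have h1 := hL S.vac S.vac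
    rw [hc] at h1
    simp only [ContinuousLinearMap.smul_apply, ContinuousLinearMap.one_apply, inner_smul_right,
      hv, mul_one] at h1
    rw [h1]
    refine (hm _ _).unique ?_
    have : (fun t => ⟪S.vac, S.flow t b S.vac⟫_ℂ) = fun _ => ⟪S.vac, b S.vac⟫_ℂ := by
      ext t
      rw [flow_vac, inner_wave_right, wave_vac]
    rw [this]
    exact hasMean_const hω _
  have h2 := hL y x
  rw [hc] at h2
  simp only [ContinuousLinearMap.smul_apply, ContinuousLinearMap.one_apply,
    inner_smul_right] at h2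
  rw [← hcv, h2]
  exact hm y x

/-- smoothing an element of the algebra into a spectral band -/
lemma exists_smoothing : ∃ K₀ : ℝ, 0 ≤ K₀ ∧ ∀ s r : ℝ, 0 < r → ∃ f : BC, ‖f‖ ≤ 1 ∧
    (∀ u ∈ Set.Icc (s - r) (s + r), f u = 1) ∧
    (∀ u, u ∉ Set.Icc (s - 2 * r) (s + 2 * r) → f u = 0) ∧
    ∃ k : ℝ → ℂ, Integrable k ∧ ∫ t, ‖k t‖ ≤ K₀ ∧ ∃ τ : ℝ → ℝ, Continuous τ ∧
      ∀ u, f u = ∫ t, k t * character (τ t) u := by
  let b : ContDiffBump (0 : ℝ) := ⟨1, 2, one_pos, one_lt_two⟩
  let β : ℝ → ℂ := fun u => ((b u : ℝ) : ℂ)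
  have hβc : HasCompactSupport β :=
    b.hasCompactSupport.comp_left (g := fun r : ℝ => (r : ℂ)) (by simp)
  have hβs : ContDiff ℝ (⊤ : ℕ∞) β := Complex.ofRealCLM.contDiff.comp b.contDiff
  let Φ : SchwartzMap ℝ ℂ := hβc.toSchwartzMap hβs
  have hΦ : (Φ : ℝ → ℂ) = β := rfl
  have hk : Integrable (FourierTransform.fourier β) := by
    have := (FourierTransform.fourier Φ : SchwartzMap ℝ ℂ).integrable (μ := volume)
    rwa [SchwartzMap.fourier_coe, hΦ] at this
  have hinv := hβs.continuous.fourierInv_fourier_eq (hβs.continuous.integrable_of_hasCompactSupport hβc) hk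
  set k₀ := FourierTransform.fourier β with hk₀
  refine ⟨∫ t, ‖k₀ t‖, integral_nonneg fun t => norm_nonneg _, fun s r hr => ?_⟩
  have hb1 : ∀ u, ‖β u‖ ≤ 1 := fun u => by
    simp only [β]
    rw [Complex.norm_real, Real.norm_eq_abs, abs_of_nonneg b.nonneg]; exact b.le_one
  have hc : Continuous fun u : ℝ => β ((u - s) / r) := hβs.continuous.comp (by fun_prop)
  refine ⟨BoundedContinuousFunction.ofNormedAddCommGroup (fun u => β ((u - s) / r)) hc 1
    (fun u => hb1 _), (BoundedContinuousFunction.norm_le zero_le_one).2 fun u => hb1 _, ?_, ?_,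
    fun t => k₀ t * character (2 * Real.pi * t / r) (-s), ?_, ?_, fun t => 2 * Real.pi * t / r,
    by fun_prop, fun u => ?_⟩
  · intro u hu
    show ((b ((u - s) / r) : ℝ) : ℂ) = 1
    rw [b.one_of_mem_closedBall]; · simp
    simp only [Metric.mem_closedBall, dist_zero_right, Real.norm_eq_abs, b]
    rw [abs_div, abs_of_pos hr, div_le_one hr, abs_le]
    constructor <;> linarith [hu.1, hu.2]
  · intro u hu
    show ((b ((u - s) / r) : ℝ) : ℂ) = 0
    rw [b.zero_of_le_dist]; · simp
    simp only [dist_zero_right, Real.norm_eq_abs, b]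
    rw [abs_div, abs_of_pos hr, le_div_iff₀ hr, le_abs]
    rw [Set.mem_Icc, not_and_or, not_le, not_le] at hu
    rcases hu with hu | hu
    · right; linarith
    · left; linarith
  · refine Integrable.mono' hk.norm (hk.aestronglyMeasurable.mul (Continuous.aestronglyMeasurable ?_)) ?_
    · simp only [character_apply]; fun_prop
    · refine Eventually.of_forall fun t => ?_
      rw [norm_mul, norm_character_apply, mul_one]
  · apply le_of_eq
    congr 1; ext t
    rw [norm_mul, norm_character_apply, mul_one]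
  · show β ((u - s) / r) = _
    rw [← hinv, Real.fourierInv_eq']
    congr 1; ext t
    simp only [character_apply, smul_eq_mul]
    rw [mul_comm _ (k₀ t), mul_assoc (k₀ t), ← Complex.exp_add]
    congr 2
    simp only [RCLike.inner_apply, conj_trivial]
    push_cast
    field_simp
    ring

lemma exists_smooth_mem (S : ModularDatum H) (k : ℝ → ℂ) (hk : Integrable k) (τ : ℝ → ℝ)
    (hτ : Continuous τ) (f : BC) (hf : ∀ u, f u = ∫ t, k t * character (τ t) u)
    {a : H →L[ℂ] H} (ha : a ∈ S.M) :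
    ∃ a' ∈ S.M, ‖a'‖ ≤ (∫ t, ‖k t‖) * ‖a‖ ∧ a' S.vac = S.D.apply f (a S.vac) := by
  have hbd : ∀ (x : H) t, ‖k t • S.flow (τ t) a x‖ ≤ ‖k t‖ * (‖a‖ * ‖x‖) := fun x t => by
    rw [norm_smul]
    exact mul_le_mul_of_nonneg_left (norm_flow_apply_le S _ a x) (norm_nonneg _)
  have hint : ∀ x : H, Integrable fun t => k t • S.flow (τ t) a x := fun x =>
    Integrable.mono' (hk.norm.mul_const (‖a‖ * ‖x‖))
      (hk.aestronglyMeasurable.smul ((continuous_flow S a x).comp hτ).aestronglyMeasurable)
      (Eventually.of_forall (hbd x))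
  have hn : ∀ x : H, ‖∫ t, k t • S.flow (τ t) a x‖ ≤ (∫ t, ‖k t‖) * ‖a‖ * ‖x‖ := fun x => by
    refine (norm_integral_le_of_norm_le (hk.norm.mul_const (‖a‖ * ‖x‖))
      (Eventually.of_forall (hbd x))).trans ?_
    rw [integral_mul_const, mul_assoc]
  let L₀ : H →ₗ[ℂ] H :=
    { toFun := fun x => ∫ t, k t • S.flow (τ t) a x
      map_add' := fun x y => by
        rw [← integral_add (hint x) (hint y)]; simp only [map_add, smul_add]
      map_smul' := fun c x => by
        rw [RingHom.id_apply, ← integral_smul]; simp only [map_smul, smul_comm c] }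
  let L : H →L[ℂ] H := L₀.mkContinuous _ hn
  have hL : ∀ x, L x = ∫ t, k t • S.flow (τ t) a x := fun x => rfl
  refine ⟨L, mem_of_commute _ fun c hc => ?_, LinearMap.mkContinuous_norm_le _
    (mul_nonneg (integral_nonneg fun t => norm_nonneg _) (norm_nonneg _)) _, ?_⟩
  · ext x
    show c (L x) = L (c x)
    rw [hL, hL, ← c.integral_comp_comm (hint x)]
    congr 1; ext t
    rw [map_smul, commute_of_mem (flow_mem S _ ha) hc]
  · rw [hL, apply_eq_integral S.D k hk τ hτ f hf]
    simp only [flow_vac]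

end Crest.Agent.R84
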